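import Vale.Agent.Lib.P245.Main

open Vale.Agent.Lib.P245 MeasureTheory in
open scoped RealInnerProductSpace ContDiff in
/-- For a centered, linearly `a`-subgaussian, log-concave probability measure `μ` on `ℝⁿ` and a test
function `f`:
(1) for every `T` with `0 < T ≤ 1/(12 a²)`,
`Ent_μ(f²) ≤ (24/T) ∫|Df|² dμ + (672 n T² a⁴ + 10) Var_μ(f)`;
(2) if `μ` has Poincare constant `C`, then
`Ent_μ(f²) ≤ 700 (a² + C + (n a⁴ C)^(1/3)) ∫|Df|² dμ`. -/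
theorem Vale.Agent.Results.P245.CubeRootBound.result {n : ℕ} (ρ : Eu n → ℝ)
    (hρ : IsLogConcaveDensity ρ) [IsProbabilityMeasure (densityMeasure ρ)]
    (a : ℝ) (ha : 0 < a)
    (hcentered : ∀ θ : Eu n, ∫ x, ⟪x, θ⟫ ∂(densityMeasure ρ) = 0)
    (hsg : IsLinearSubgaussian (densityMeasure ρ) a)
    (f : Eu n → ℝ) (hf : ContDiff ℝ ∞ f) (hfc : HasCompactSupport f) :
    (∀ T : ℝ, 0 < T → 12 * T * a ^ 2 ≤ 1 →
      entropy (densityMeasure ρ) (fun x => f x ^ 2) ≤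
        (24 / T) * (∫ x, ‖fderiv ℝ f x‖ ^ 2 ∂(densityMeasure ρ)) +
          (672 * ((n : ℝ) * T ^ 2 * a ^ 4) + 10) *
            ∫ x, (f x - ∫ y, f y ∂(densityMeasure ρ)) ^ 2 ∂(densityMeasure ρ)) ∧
    (∀ C : ℝ, 0 ≤ C → HasPoincare (densityMeasure ρ) C →
      entropy (densityMeasure ρ) (fun x => f x ^ 2) ≤
        700 * (a ^ 2 + C + ((n : ℝ) * a ^ 4 * C) ^ (1 / 3 : ℝ)) *
          ∫ x, ‖fderiv ℝ f x‖ ^ 2 ∂(densityMeasure ρ)) :=
  ⟨fun _ hT0 hT1 => variance_bound hρ ha hcentered hsg hf hfc hT0 hT1,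
    fun _ hC hP => cube_root_bound hρ ha hC hcentered hsg hP hf hfc⟩
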